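import Vale.Agent.P045h24.Cert.M0
import Vale.Agent.P045h24.Cert.M1
import Vale.Agent.P045h24.Cert.M2
import Vale.Agent.P045h24.Cert.M3
import Vale.Agent.P045h24.Cert.M4
import Vale.Agent.P045h24.Cert.M5
import Vale.Agent.P045h24.Cert.M6
import Vale.Agent.P045h24.Cert.M7
import Vale.Agent.P045h24.Cert.M8

set_option linter.all false
set_option maxRecDepth 100000

namespace Vale.Agent.P045h24.Cert

open Vale.Agent.P045h24

universe u

noncomputable def D1043137 : ℕ := 0x5c71c6149101
noncomputable def C1043137 : chk 1479 [182,820,0] [2216,1647,1487,273,192,31,30,29,27] D1043137 0 = true := by decide +kernel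
theorem T1043137 : WA.{u} [1479,182,820,0] := WA_of_chk (L := [2216,1647,1487,273,192,31,30,29,27]) (D := D1043137) (j := 0) ⟨T1043138, T1085308, T1112203, T1126421, T1168649, T1182862, T1185308, T1191807, T1198306, trivial⟩ C1043137

noncomputable def D621231 : ℕ := 0x6571c6149101
noncomputable def C621231 : chk 1623 [182,820,0] [2376,1647,1487,273,193,192,191,189,30] D621231 0 = true := by decide +kernel
theorem T621231 : WA.{u} [1623,182,820,0] := WA_of_chk (L := [2376,1647,1487,273,193,192,191,189,30]) (D := D621231) (j := 0) ⟨T621232, T663303, T677540, T704556, T746858, T749304, T755815, T797080, T803581, trivial⟩ C621231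

noncomputable def D621230 : ℕ := 0xb61470c8100
noncomputable def C621230 : chk 182 [820,0] [1623,1569,1560,1542,1479] D621230 0 = true := by decide +kernel
theorem T621230 : WA.{u} [182,820,0] := WA_of_chk (L := [1623,1569,1560,1542,1479]) (D := D621230) (j := 0) ⟨T621231, T817794, T940202, T993067, T1043137, trivial⟩ C621230

noncomputable def D196587 : ℕ := 0x6180c2049005
noncomputable def C196587 : chk 1560 [911,820,0] [2297,1648,1568,1002,921,841,840,839,838] D196587 0 = true := by decide +kernel
theorem T196587 : WA.{u} [1560,911,820,0] := WA_of_chk (L := [2297,1648,1568,1002,921,841,840,839,838]) (D := D196587) (j := 0) ⟨T196588, T238748, T265643, T279861, T322079, T336292, T338738, T345237, T351736, trivial⟩ C196587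

noncomputable def D2 : ℕ := 0x6600c2049005
noncomputable def C2 : chk 1632 [911,820,0] [2377,1648,1568,1002,922,921,920,919,840] D2 0 = true := by decide +kernel
theorem T2 : WA.{u} [1632,911,820,0] := WA_of_chk (L := [2377,1648,1568,1002,922,921,920,919,840]) (D := D2) (j := 0) ⟨T3, T42104, T56341, T83357, T125651, T128097, T134608, T175873, T182374, trivial⟩ C2

noncomputable def D1 : ℕ := 0x38f0431c8004
noncomputable def C1 : chk 911 [820,0] [1632,1560,1488,1479,1470] D1 0 = true := by decide +kernel
theorem T1 : WA.{u} [911,820,0] := WA_of_chk (L := [1632,1560,1488,1479,1470]) (D := D1) (j := 0) ⟨T2, T196587, T393006, T515406, T568269, trivial⟩ C1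

noncomputable def D0 : ℕ := 0x182141100
noncomputable def C0 : chk 820 [0] [911,182] D0 0 = true := by decide +kernel
theorem T0 : WA.{u} [820,0] := WA_of_chk (L := [911,182]) (D := D0) (j := 0) ⟨T1, T621230, trivial⟩ C0

end Vale.Agent.P045h24.Cert
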